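import Vale.Agent.Lib.P310.N.Prog
import Vale.Agent.Lib.P310.Defs

/-!
A Turing machine with the parameters of the reduction, and its alternating program.
-/

namespace Vale.Agent.Lib.P310.TMC

open scoped Classical
open Vale.Agent.Lib.P310 Vale.Agent.Lib.P310.N

noncomputable section

/-- `if` with classical decidability. -/
def ifP {α : Type} (P : Prop) (x y : α) : α := @ite α P (Classical.propDecidable P) x y

/-- A deterministic one-tape Turing machine (states, symbols, transition function: next state,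
written symbol, direction with `true` for right; start state, accepting state, blank) and the
numbers `m`, `p`, `b` of the reduction. -/
structure Par where
  Λ : Type
  Γ : Type
  iΛ : Fintype Λ
  iΓ : Fintype Γ
  δ : Λ → Γ → Λ × Γ × Bool
  q0 : Λ
  qa : Λ
  blank : Γ
  m : ℕ
  p : ℕ
  b : ℕ
  hp : 2 * m + 1 ≤ p

attribute [instance] Par.iΛ Par.iΓ

namespace Par

variable (D : Par)

/-- Configurations: state, head position, tape. -/
structure Cfg where
  q : D.Λ
  h : ℤ
  tape : ℤ → D.Γ

/-- The configuration after a transition with result `r`. -/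
def stepA (c : D.Cfg) (r : D.Λ × D.Γ × Bool) : D.Cfg :=
  ⟨r.1, c.h + ifP (r.2.2 = true) 1 (-1), Function.update c.tape c.h r.2.1⟩

/-- The configuration after `t` steps from the blank tape. -/
def run (t : ℕ) : D.Cfg :=
  (fun c : D.Cfg => D.stepA c (D.δ c.q (c.tape c.h)))^[t] ⟨D.q0, 0, fun _ => D.blank⟩

/-- The machine is in its accepting state at some time at most `T`. -/
def AcceptsWithin (T : ℕ) : Prop := ∃ t, t ≤ T ∧ (D.run t).q = D.qa

/-- Cells of the space-time diagram: symbol and head state. -/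
abbrev Cell : Type := D.Γ × Option D.Λ

/-- Triples of cells. -/
abbrev Tri : Type := D.Cell × D.Cell × D.Cell

/-- The state arriving from a neighbour cell `a` moving in direction `d`. -/
def mv (d : Bool) (a : D.Cell) : Option D.Λ :=
  a.2.bind fun q => ifP ((D.δ q a.1).2.2 = d) (some (D.δ q a.1).1) none

/-- The local rule of the space-time diagram. -/
def rule (l c r : D.Cell) : D.Cell :=
  (c.2.elim c.1 (fun q => (D.δ q c.1).2.1), (D.mv true l).or (D.mv false r))

/-- Labels. -/
abbrev Lb : Type := Sg D.b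

/-- The number of a label. -/
def dval (v : D.Lb) : ℕ := (Fintype.equivFin D.Lb v).val

/-- The label of a number. -/
def ds (t : ℕ) : D.Lb :=
  if h : t < Fintype.card D.Lb then (Fintype.equivFin D.Lb).symm ⟨t, h⟩ else 0

/-- Digit indices. -/
abbrev Ix : Type := Fin (D.m + 1)

/-- The column of digit `n` of register `r` (`false` time, `true` position); digit `1` is the most
significant one. -/
def col (r : Bool) (n : ℕ) : Fin D.p :=
  ⟨(ifP (r = true) (D.m + n - 1) (n - 1)) % D.p, Nat.mod_lt _ (by have := D.hp; omega)⟩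

/-- The slack column. -/
def zc : Fin D.p := ⟨D.p - 1, by have := D.hp; omega⟩

/-- Translation changing column `j` and the slack column by `w`. -/
def dvec (j : Fin D.p) (w : D.Lb) : Frame D.p D.b :=
  fun c => (ifP (c = D.zc) w 0) + (ifP (c = j) w 0)

lemma dvec_sum (j : Fin D.p) (w : D.Lb) : ∑ c, D.dvec j w c = 0 := by
  have h : ∀ a : Fin D.p, ∑ c, ifP (c = a) w 0 = w := by
    intro a
    rw [Finset.sum_eq_single a (fun x _ hx => by simp [ifP, hx]) (by simp)]
    simp [ifP]
  simp only [dvec]
  rw [Finset.sum_add_distrib, h, h]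
  funext i
  simpa using CharTwo.add_self_eq_zero (w i)

/-- Controls. `claim`: the cell at the current time and position is `a`. `init`: the claim at time
zero, with `n` digits of the time to check. `pos`: compare the position with the start position,
with `n` digits to check. `stp`: the three neighbour claims of a step. `start`: the search for an
accepting cell. `dig`: a decrement or an increment with `n` digits left. -/
abbrev Ctl : Type :=
  D.Cell ⊕ (D.Cell × D.Ix) ⊕ (Bool × D.Ix) ⊕ (D.Tri × Bool) ⊕ Unit ⊕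
    (Option D.Lb × Bool × Bool × D.Ix × (D.Cell ⊕ D.Tri))

/-- Reads and writes: column, label, next control. -/
abbrev Rw : Type := Fin D.p × D.Lb × D.Ctl

/-- Branches of a gate. -/
abbrev Bn : Type := D.Tri × D.Lb × Bool

/-- Nodes. -/
abbrev Nd : Type := D.Ctl ⊕ D.Rw ⊕ D.Rw ⊕ Unit

variable {D}

def cClaim (a : D.Cell) : D.Ctl := Sum.inl a
def cInit (a : D.Cell) (n : D.Ix) : D.Ctl := Sum.inr (Sum.inl (a, n))
def cPos (e : Bool) (n : D.Ix) : D.Ctl := Sum.inr (Sum.inr (Sum.inl (e, n)))
def cStp (t : D.Tri) (f : Bool) : D.Ctl := Sum.inr (Sum.inr (Sum.inr (Sum.inl (t, f))))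
def cStart : D.Ctl := Sum.inr (Sum.inr (Sum.inr (Sum.inr (Sum.inl ()))))
def cDig (u : Option D.Lb) (i r : Bool) (n : D.Ix) (κ : D.Cell ⊕ D.Tri) : D.Ctl :=
  Sum.inr (Sum.inr (Sum.inr (Sum.inr (Sum.inr (u, i, r, n, κ)))))

/-- The failing control. -/
def cDead : D.Ctl := cPos false 0

def nG (x : D.Ctl) : D.Nd := Sum.inl x
def nR (j : Fin D.p) (s : D.Lb) (x : D.Ctl) : D.Nd := Sum.inr (Sum.inl (j, s, x))
def nW (j : Fin D.p) (s : D.Lb) (x : D.Ctl) : D.Nd := Sum.inr (Sum.inr (Sum.inl (j, s, x)))
def nA : D.Nd := Sum.inr (Sum.inr (Sum.inr ()))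

/-- The previous digit index. -/
def prev (n : D.Ix) : D.Ix := ⟨n.val - 1, by have := n.isLt; omega⟩

variable (D)

def claimK (a : D.Cell) (t : D.Tri) (f : Bool) : D.Nd :=
  ifP (f = true) (nG (cInit a (Fin.last _)))
    (ifP (D.rule t.1 t.2.1 t.2.2 = a) (nG (cDig none false false (Fin.last _) (Sum.inr t)))
      (nG cDead))

def initK (a : D.Cell) (n : D.Ix) (v : D.Lb) : D.Nd :=
  ifP (n.val = 0)
    (nG (ifP (a = (D.blank, some D.q0)) (cPos true (Fin.last _))
      (ifP (a = (D.blank, none)) (cPos false (Fin.last _)) cDead)))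
    (nR (D.col false n) v (ifP (D.dval v = 0) (cInit a (prev n)) cDead))

def posK (e : Bool) (n : D.Ix) (v : D.Lb) : D.Nd :=
  ifP (n.val = 0) (ifP (e = true) nA (nG cDead))
    (nR (D.col true n) v
      (ifP (D.dval v = ifP (n.val = 1) (2 ^ D.b / 2) 0) (cPos e (prev n))
        (ifP (e = true) cDead (cPos true 0))))

def stpL (t : D.Tri) (f : Bool) : D.Nd :=
  ifP (f = true) (nG (cClaim t.2.1)) (nG (cDig none false true (Fin.last _) (Sum.inl t.1)))

def stpR (t : D.Tri) (f : Bool) : D.Nd :=
  ifP (f = true) (nG (cDig none true true (Fin.last _) (Sum.inl t.2.2))) (nG (cStp t true))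

def startK (a : D.Cell) : D.Nd :=
  ifP (a.2 = some D.qa) (nR (D.col false 1) (D.ds 0) (cClaim a)) (nG cDead)

def digK (u : Option D.Lb) (i r : Bool) (n : D.Ix) (κ : D.Cell ⊕ D.Tri) (w : D.Lb) : D.Nd :=
  u.elim
    (ifP (n.val = 0) (nG cDead) (nR (D.col r n) w (cDig (some w) i r n κ)))
    (fun v => nW (D.col r n)
      (v + D.ds ((D.dval v + ifP (i = true) 1 (2 ^ D.b - 1)) % 2 ^ D.b))
      (ifP (ifP (i = true) (D.dval v + 1 = 2 ^ D.b) (D.dval v = 0))
        (cDig none i r (prev n) κ) (Sum.elim cClaim (fun t => cStp t false) κ)))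

/-- The left child of a gate in a branch. -/
def kidL (c : D.Ctl) (i : D.Bn) : D.Nd :=
  Sum.elim (fun a => D.claimK a i.1 i.2.2) (Sum.elim (fun x => D.initK x.1 x.2 i.2.1)
    (Sum.elim (fun x => D.posK x.1 x.2 i.2.1) (Sum.elim (fun x => D.stpL x.1 x.2)
      (Sum.elim (fun _ => D.startK i.1.1)
        (fun x => D.digK x.1 x.2.1 x.2.2.1 x.2.2.2.1 x.2.2.2.2 i.2.1))))) c

/-- The right child of a gate in a branch: an `and` gate has different children, an `or` gate has
equal children. -/
def kidR (c : D.Ctl) (i : D.Bn) : D.Nd :=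
  Sum.elim (fun _ => D.kidL c i) (Sum.elim (fun _ => D.kidL c i) (Sum.elim (fun _ => D.kidL c i)
    (Sum.elim (fun x => D.stpR x.1 x.2) (fun _ => D.kidL c i)))) c

instance iCell : Fintype D.Cell := inferInstance
instance iTri : Fintype D.Tri := inferInstance
instance iLb : Fintype D.Lb := inferInstance
instance iCtl : Fintype D.Ctl := inferInstance
instance iRw : Fintype D.Rw := inferInstance
instance iBn : Fintype D.Bn := inferInstance

/-- The program of the machine. -/
def prog : Prog D.p D.b where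
  Ga := D.Ctl
  Re := D.Rw
  Wr := D.Rw
  Ac := Unit
  Br := D.Bn
  instG := D.iCtl
  instR := D.iRw
  instW := D.iRw
  instA := PUnit.fintype
  instB := D.iBn
  gl := D.kidL
  gr := D.kidR
  gate_ok := by
    intro g
    rcases g with a | x | x | x | r | x
    · exact Or.inr fun _ => rfl
    · exact Or.inr fun _ => rfl
    · exact Or.inr fun _ => rfl
    · exact Or.inl fun _ _ => ⟨rfl, rfl⟩
    · exact Or.inr fun _ => rfl
    · exact Or.inr fun _ => rfl
  reJ r := r.1
  reS r := r.2.1
  reN r := nG r.2.2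
  wrD w := D.dvec w.1 w.2.1
  wrN w := nG w.2.2
  wr_sum w := D.dvec_sum _ _

/-- The XOR system of the reduction. -/
def sysT : XorSys := (D.prog.spec (nG cStart) nA).net.sys (Fintype.equivFin _)

end Par

end

end Vale.Agent.Lib.P310.TMC
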