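import Vale.Agent.Lib.P310.TMC.Defs

/-!
The semantics of the program of a machine: gates, reads, writes; digits and the digit gadgets.
-/

namespace Vale.Agent.Lib.P310.TMC

open scoped Classical
open Finset
open Vale.Agent.Lib.P310 Vale.Agent.Lib.P310.N

noncomputable section

namespace Prog'

variable {p b : ℕ} {Q : Prog p b}

lemma acc_ga_iff {g : Q.Ga} {L : Frame p b} :
    Q.Acc (Sum.inl g) L ↔ ∃ i, Q.Acc (Q.gl g i) L ∧ Q.Acc (Q.gr g i) L := by
  constructor
  · intro h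
    cases h with
    | ga g i L h h' => exact ⟨i, h, h'⟩
  · rintro ⟨i, h1, h2⟩
    exact Prog.Acc.ga g i L h1 h2

lemma acc_re_iff {r : Q.Re} {L : Frame p b} :
    Q.Acc (Sum.inr (Sum.inl r)) L ↔ L (Q.reJ r) = Q.reS r ∧ Q.Acc (Q.reN r) L := by
  constructor
  · intro h
    cases h with
    | re r L h h' => exact ⟨h, h'⟩
  · rintro ⟨h1, h2⟩
    exact Prog.Acc.re r L h1 h2

private lemma sg_self0 {b : ℕ} (v : Sg b) : v + v = 0 := by
  funext i
  simpa using CharTwo.add_self_eq_zero (v i)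

lemma acc_wr_iff {w : Q.Wr} {L : Frame p b} :
    Q.Acc (Sum.inr (Sum.inr (Sum.inl w))) L ↔ Q.Acc (Q.wrN w) (fun j => L j + Q.wrD w j) := by
  have hadd : ∀ L' : Frame p b, (fun j => (L' j + Q.wrD w j) + Q.wrD w j) = L' := by
    intro L'
    funext c
    rw [add_assoc, sg_self0, add_zero]
  constructor
  · intro h
    cases h with
    | wr w L' h =>
      rw [hadd L']
      exact h
  · intro h
    have := Prog.Acc.wr w _ h
    rw [hadd L] at this
    exact this

lemma acc_ac_iff {a : Q.Ac} {L : Frame p b} :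
    Q.Acc (Sum.inr (Sum.inr (Sum.inr a))) L ↔ ∑ j, L j = 0 := by
  constructor
  · intro h
    cases h with
    | ac a L hL => exact hL
  · intro h
    exact Prog.Acc.ac a L h

lemma not_acc_loop {g : Q.Ga} (hg : ∀ i, Q.gl g i = Sum.inl g) {L : Frame p b} :
    ¬ Q.Acc (Sum.inl g) L := by
  have key : ∀ (n : Q.Node) (L : Frame p b), Q.Acc n L → n ≠ Sum.inl g := by
    intro n L h
    induction h with
    | ac a L hL => simp
    | re r L h h' _ => simp
    | wr w L h _ => simp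
    | ga g' i L h h' ih1 _ =>
      intro e
      have e' : g' = g := Sum.inl_injective e
      subst e'
      exact ih1 (hg i)
  exact fun h => key _ _ h rfl

end Prog'

namespace Par

variable {D : Par}

lemma ifP_pos {α : Type} {P : Prop} (h : P) (x y : α) : ifP P x y = x := by simp [ifP, h]
lemma ifP_neg {α : Type} {P : Prop} (h : ¬ P) (x y : α) : ifP P x y = y := by simp [ifP, h]
lemma ifP_t {α : Type} (x y : α) : ifP (true = true) x y = x := by simp [ifP]
lemma ifP_f {α : Type} (x y : α) : ifP (false = true) x y = y := by simp [ifP]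
lemma ifP_T {α : Type} (x y : α) : ifP True x y = x := by simp [ifP]

/-- Acceptance in the program of the machine. -/
abbrev A (n : D.Nd) (L : Frame D.p D.b) : Prop := D.prog.Acc n L

/-- Acceptance at a control. -/
abbrev Ac (c : D.Ctl) (L : Frame D.p D.b) : Prop := A (nG c) L

lemma acc_gate {c : D.Ctl} {L : Frame D.p D.b} :
    Ac c L ↔ ∃ i, A (D.kidL c i) L ∧ A (D.kidR c i) L :=
  Prog'.acc_ga_iff (Q := D.prog)

lemma acc_read {j : Fin D.p} {s : D.Lb} {x : D.Ctl} {L : Frame D.p D.b} :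
    A (nR j s x) L ↔ L j = s ∧ Ac x L :=
  Prog'.acc_re_iff (Q := D.prog) (r := (j, s, x))

lemma acc_write {j : Fin D.p} {s : D.Lb} {x : D.Ctl} {L : Frame D.p D.b} :
    A (nW j s x) L ↔ Ac x (fun c => L c + D.dvec j s c) :=
  Prog'.acc_wr_iff (Q := D.prog) (w := (j, s, x))

lemma acc_nA {L : Frame D.p D.b} : A (nA : D.Nd) L ↔ ∑ j, L j = 0 :=
  Prog'.acc_ac_iff (Q := D.prog) (a := ())

/-- The dead control accepts nothing. -/
lemma not_ac_dead {L : Frame D.p D.b} : ¬ Ac (cDead : D.Ctl) L := by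
  apply Prog'.not_acc_loop (Q := D.prog) (g := (cDead : D.Ctl))
  intro i
  show D.posK false 0 i.2.1 = _
  unfold posK
  rw [ifP_pos (by rfl), ifP_neg (by simp)]
  rfl

/-! ### Digits -/

lemma card_lb : Fintype.card D.Lb = 2 ^ D.b := by
  simp [ZMod.card]

lemma dval_lt (v : D.Lb) : D.dval v < 2 ^ D.b := by
  have h : D.dval v < Fintype.card D.Lb := (Fintype.equivFin D.Lb v).isLt
  rwa [card_lb] at h

lemma dval_ds {t : ℕ} (h : t < 2 ^ D.b) : D.dval (D.ds t) = t := by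
  have h' : t < Fintype.card D.Lb := by rw [card_lb]; exact h
  unfold dval ds
  rw [dif_pos h']
  simp

lemma ds_dval (v : D.Lb) : D.ds (D.dval v) = v := by
  unfold dval ds
  rw [dif_pos (Fintype.equivFin D.Lb v).isLt]
  simp

lemma col_val (r : Bool) {n : ℕ} (h1 : 1 ≤ n) (h2 : n ≤ D.m) :
    (D.col r n).val = if r then D.m + n - 1 else n - 1 := by
  have hp := D.hp
  show (ifP (r = true) (D.m + n - 1) (n - 1)) % D.p = _
  simp only [ifP]
  split_ifs <;> (apply Nat.mod_eq_of_lt; omega)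

lemma col_ne_z (r : Bool) {n : ℕ} (h1 : 1 ≤ n) (h2 : n ≤ D.m) : D.col r n ≠ D.zc := by
  have hp := D.hp
  intro h
  have := congrArg Fin.val h
  rw [col_val r h1 h2] at this
  simp only [zc] at this
  split_ifs at this <;> omega

lemma col_inj {r r' : Bool} {n n' : ℕ} (h1 : 1 ≤ n) (h2 : n ≤ D.m)
    (h1' : 1 ≤ n') (h2' : n' ≤ D.m) (h : D.col r n = D.col r' n') : r = r' ∧ n = n' := by
  have := congrArg Fin.val h
  rw [col_val r h1 h2, col_val r' h1' h2'] at this
  cases r <;> cases r' <;> simp at this ⊢ <;> omega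

lemma add_dvec_self {j : Fin D.p} (hj : j ≠ D.zc) (L : Frame D.p D.b) (w : D.Lb) :
    L j + D.dvec j w j = L j + w := by
  simp [dvec, ifP, hj]

lemma add_dvec_other {j c : Fin D.p} (hc : c ≠ D.zc) (hcj : c ≠ j)
    (L : Frame D.p D.b) (w : D.Lb) : L c + D.dvec j w c = L c := by
  simp [dvec, ifP, hc, hcj]

variable (D) in
/-- The value of the first `n` digits of a register. -/
def Vr (r : Bool) (L : Frame D.p D.b) : ℕ → ℕ
  | 0 => 0
  | n + 1 => D.dval (L (D.col r (n + 1))) + 2 ^ D.b * Vr r L n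

lemma Vr_succ (r : Bool) (L : Frame D.p D.b) (n : ℕ) :
    D.Vr r L (n + 1) = D.dval (L (D.col r (n + 1))) + 2 ^ D.b * D.Vr r L n := rfl

lemma Vr_congr (r : Bool) {L L' : Frame D.p D.b} (n : ℕ)
    (h : ∀ n', 1 ≤ n' → n' ≤ n → L' (D.col r n') = L (D.col r n')) :
    D.Vr r L' n = D.Vr r L n := by
  induction n with
  | zero => rfl
  | succ n ih =>
    rw [Vr_succ, Vr_succ, h (n + 1) (by omega) le_rfl, ih (fun n' h1 h2 => h n' h1 (by omega))]

lemma Vr_lt (r : Bool) (L : Frame D.p D.b) (n : ℕ) : D.Vr r L n < (2 ^ D.b) ^ n := by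
  induction n with
  | zero => simp [Vr]
  | succ n ih =>
    rw [Vr_succ]
    have h1 := dval_lt (L (D.col r (n + 1)))
    have hQ : 0 < 2 ^ D.b := by positivity
    calc D.dval (L (D.col r (n + 1))) + 2 ^ D.b * D.Vr r L n
        < 2 ^ D.b + 2 ^ D.b * D.Vr r L n := by omega
      _ = 2 ^ D.b * (D.Vr r L n + 1) := by ring
      _ ≤ 2 ^ D.b * (2 ^ D.b) ^ n := Nat.mul_le_mul_left _ ih
      _ = (2 ^ D.b) ^ (n + 1) := by ring

variable (D) in
/-- What a digit operation with `n` digits left may change. -/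
def STEP (r : Bool) (n : ℕ) (L L' : Frame D.p D.b) : Prop :=
  (∀ n', n < n' → n' ≤ D.m → L' (D.col r n') = L (D.col r n')) ∧
    (∀ n', 1 ≤ n' → n' ≤ D.m → L' (D.col (!r) n') = L (D.col (!r) n')) ∧
    ∑ j, L' j = ∑ j, L j

lemma sum_add_dvec (L : Frame D.p D.b) (j : Fin D.p) (w : D.Lb) :
    ∑ c, (L c + D.dvec j w c) = ∑ c, L c := by
  rw [Finset.sum_add_distrib, D.dvec_sum, add_zero]

lemma step_dvec (r : Bool) {n : ℕ} (hn : n + 1 ≤ D.m) (L : Frame D.p D.b) (w : D.Lb) :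
    D.STEP r (n + 1) L (fun c => L c + D.dvec (D.col r (n + 1)) w c) := by
  refine ⟨fun n' h1 h2 => ?_, fun n' h1 h2 => ?_, sum_add_dvec L _ w⟩
  · apply add_dvec_other (col_ne_z r (by omega) h2)
    intro h
    have := (col_inj (by omega) h2 (by omega) hn h).2
    omega
  · apply add_dvec_other (col_ne_z _ h1 h2)
    intro h
    have := (col_inj h1 h2 (by omega) hn h).1
    cases r <;> simp at this

lemma step_comp (r : Bool) {n : ℕ} (hn : n + 1 ≤ D.m) (L L2 : Frame D.p D.b) (w : D.Lb)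
    (h : D.STEP r n (fun c => L c + D.dvec (D.col r (n + 1)) w c) L2) :
    D.STEP r (n + 1) L L2 := by
  have h1 := step_dvec r hn L w
  refine ⟨fun n' h2 h3 => ?_, fun n' h2 h3 => ?_, ?_⟩
  · rw [h.1 n' (by omega) h3, h1.1 n' h2 h3]
  · rw [h.2.1 n' h2 h3, h1.2.1 n' h2 h3]
  · rw [h.2.2, h1.2.2]

private lemma sg_self1 {b : ℕ} (v : Sg b) : v + v = 0 := by
  funext i
  simpa using CharTwo.add_self_eq_zero (v i)

lemma upd_self (r : Bool) {n : ℕ} (hn : n + 1 ≤ D.m) (L : Frame D.p D.b) (s : D.Lb) :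
    L (D.col r (n + 1)) + D.dvec (D.col r (n + 1)) (L (D.col r (n + 1)) + s)
      (D.col r (n + 1)) = s := by
  rw [add_dvec_self (col_ne_z r (by omega) hn), ← add_assoc, sg_self1, zero_add]

lemma upd_low (r : Bool) {n : ℕ} (hn : n + 1 ≤ D.m) (L : Frame D.p D.b) (w : D.Lb) :
    D.Vr r (fun c => L c + D.dvec (D.col r (n + 1)) w c) n = D.Vr r L n := by
  apply Vr_congr
  intro n' h1 h2
  apply add_dvec_other (col_ne_z r h1 (by omega))
  intro h
  have := (col_inj h1 (by omega) (by omega) hn h).2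
  omega

lemma upd_val (r : Bool) {n : ℕ} (hn : n + 1 ≤ D.m) (L : Frame D.p D.b) (s : D.Lb) :
    D.Vr r (fun c => L c + D.dvec (D.col r (n + 1)) (L (D.col r (n + 1)) + s) c) (n + 1)
      = D.dval s + 2 ^ D.b * D.Vr r L n := by
  rw [Vr_succ, upd_self r hn L s, upd_low r hn]

/-! ### The digit gadgets -/

/-- The control after a digit operation. -/
def kontC (κ : D.Cell ⊕ D.Tri) : D.Ctl := Sum.elim cClaim (fun t => cStp t false) κ

/-- Any branch with a given digit. -/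
def brOf (v : D.Lb) : D.Bn :=
  (((D.blank, none), (D.blank, none), (D.blank, none)), v, false)

/-- A gate reading a column. -/
lemma ac_sw {c : D.Ctl} {L : Frame D.p D.b} {j : Fin D.p} {f : D.Lb → D.Ctl}
    (hL : ∀ i : D.Bn, D.kidL c i = nR j i.2.1 (f i.2.1)) (hR : ∀ i : D.Bn, D.kidR c i = D.kidL c i) :
    Ac c L ↔ Ac (f (L j)) L := by
  rw [acc_gate]
  constructor
  · rintro ⟨i, h, _⟩
    rw [hL, acc_read] at h
    rw [h.1]
    exact h.2
  · intro h
    refine ⟨brOf (L j), ?_, ?_⟩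
    · rw [hL, acc_read]
      exact ⟨rfl, h⟩
    · rw [hR, hL, acc_read]
      exact ⟨rfl, h⟩

/-- An `or` gate. -/
lemma ac_or {c : D.Ctl} {L : Frame D.p D.b} (hR : ∀ i : D.Bn, D.kidR c i = D.kidL c i) :
    Ac c L ↔ ∃ i, A (D.kidL c i) L := by
  rw [acc_gate]
  constructor
  · rintro ⟨i, h, _⟩
    exact ⟨i, h⟩
  · rintro ⟨i, h⟩
    exact ⟨i, h, by rw [hR]; exact h⟩

/-- Reading a digit. -/
lemma ac_dig_read (i r : Bool) {n : ℕ} (hn : n + 1 < D.m + 1) (κ : D.Cell ⊕ D.Tri)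
    (L : Frame D.p D.b) :
    Ac (cDig none i r ⟨n + 1, hn⟩ κ) L ↔
      Ac (cDig (some (L (D.col r (n + 1)))) i r ⟨n + 1, hn⟩ κ) L := by
  refine ac_sw (f := fun w => cDig (some w) i r ⟨n + 1, hn⟩ κ) ?_ (fun _ => rfl)
  intro x
  show D.digK none i r ⟨n + 1, hn⟩ κ x.2.1 = _
  simp only [digK, Option.elim_none]
  rw [ifP_neg (by simp)]

/-- Writing a digit. -/
lemma ac_dig_write (v : D.Lb) (i r : Bool) {n : ℕ} (hn : n < D.m + 1) (κ : D.Cell ⊕ D.Tri)
    (L : Frame D.p D.b) :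
    Ac (cDig (some v) i r ⟨n, hn⟩ κ) L ↔
      Ac (ifP (ifP (i = true) (D.dval v + 1 = 2 ^ D.b) (D.dval v = 0))
          (cDig none i r ⟨n - 1, by omega⟩ κ) (kontC κ))
        (fun c => L c + D.dvec (D.col r n)
          (v + D.ds ((D.dval v + ifP (i = true) 1 (2 ^ D.b - 1)) % 2 ^ D.b)) c) := by
  rw [ac_or (fun _ => rfl)]
  constructor
  · rintro ⟨x, h⟩
    have e : D.kidL (cDig (some v) i r ⟨n, hn⟩ κ) x = D.digK (some v) i r ⟨n, hn⟩ κ x.2.1 := rfl
    rw [e] at h
    simp only [digK, Option.elim_some] at h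
    exact acc_write.1 h
  · intro h
    refine ⟨brOf 0, ?_⟩
    have e : D.kidL (cDig (some v) i r ⟨n, hn⟩ κ) (brOf 0) = D.digK (some v) i r ⟨n, hn⟩ κ 0 := rfl
    rw [e]
    simp only [digK, Option.elim_some]
    exact acc_write.2 h

lemma two_pow_pos'' (b : ℕ) : 0 < 2 ^ b := by positivity

/-- A decrement step with a nonzero digit. -/
lemma ac_dec_nz (r : Bool) {n : ℕ} (hn : n + 1 < D.m + 1) (κ : D.Cell ⊕ D.Tri)
    (L : Frame D.p D.b) (h0 : D.dval (L (D.col r (n + 1))) ≠ 0) :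
    Ac (cDig none false r ⟨n + 1, hn⟩ κ) L ↔
      Ac (kontC κ) (fun c => L c + D.dvec (D.col r (n + 1))
        (L (D.col r (n + 1)) + D.ds (D.dval (L (D.col r (n + 1))) - 1)) c) := by
  rw [ac_dig_read, ac_dig_write]
  have hQ := two_pow_pos'' D.b
  have hlt := dval_lt (L (D.col r (n + 1)))
  simp only [ifP_f]
  rw [ifP_neg h0]
  have e : (D.dval (L (D.col r (n + 1))) + (2 ^ D.b - 1)) % 2 ^ D.b =
      D.dval (L (D.col r (n + 1))) - 1 := by
    have : D.dval (L (D.col r (n + 1))) + (2 ^ D.b - 1) =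
        (D.dval (L (D.col r (n + 1))) - 1) + 2 ^ D.b := by omega
    rw [this, Nat.add_mod_right, Nat.mod_eq_of_lt (by omega)]
  rw [e]

/-- A decrement step with a zero digit. -/
lemma ac_dec_z (r : Bool) {n : ℕ} (hn : n + 1 < D.m + 1) (κ : D.Cell ⊕ D.Tri)
    (L : Frame D.p D.b) (h0 : D.dval (L (D.col r (n + 1))) = 0) :
    Ac (cDig none false r ⟨n + 1, hn⟩ κ) L ↔
      Ac (cDig none false r ⟨n, by omega⟩ κ) (fun c => L c + D.dvec (D.col r (n + 1))
        (L (D.col r (n + 1)) + D.ds (2 ^ D.b - 1)) c) := by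
  rw [ac_dig_read, ac_dig_write]
  have hQ := two_pow_pos'' D.b
  simp only [ifP_f]
  rw [ifP_pos h0]
  have e : (D.dval (L (D.col r (n + 1))) + (2 ^ D.b - 1)) % 2 ^ D.b = 2 ^ D.b - 1 := by
    rw [h0, zero_add, Nat.mod_eq_of_lt (by omega)]
  rw [e]
  rfl

/-- An increment step without carry. -/
lemma ac_inc_nc (r : Bool) {n : ℕ} (hn : n + 1 < D.m + 1) (κ : D.Cell ⊕ D.Tri)
    (L : Frame D.p D.b) (h0 : D.dval (L (D.col r (n + 1))) + 1 < 2 ^ D.b) :
    Ac (cDig none true r ⟨n + 1, hn⟩ κ) L ↔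
      Ac (kontC κ) (fun c => L c + D.dvec (D.col r (n + 1))
        (L (D.col r (n + 1)) + D.ds (D.dval (L (D.col r (n + 1))) + 1)) c) := by
  rw [ac_dig_read, ac_dig_write]
  simp only [ifP_T]
  rw [ifP_neg (by omega), Nat.mod_eq_of_lt h0]

/-- An increment step with carry. -/
lemma ac_inc_c (r : Bool) {n : ℕ} (hn : n + 1 < D.m + 1) (κ : D.Cell ⊕ D.Tri)
    (L : Frame D.p D.b) (h0 : D.dval (L (D.col r (n + 1))) + 1 = 2 ^ D.b) :
    Ac (cDig none true r ⟨n + 1, hn⟩ κ) L ↔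
      Ac (cDig none true r ⟨n, by omega⟩ κ) (fun c => L c + D.dvec (D.col r (n + 1))
        (L (D.col r (n + 1)) + D.ds 0) c) := by
  rw [ac_dig_read, ac_dig_write]
  simp only [ifP_T]
  rw [ifP_pos h0, h0, Nat.mod_self]
  rfl

lemma ac_dig_zero (u : Bool) (r : Bool) (hn : 0 < D.m + 1) (κ : D.Cell ⊕ D.Tri)
    (L : Frame D.p D.b) : ¬ Ac (cDig none u r ⟨0, hn⟩ κ) L := by
  rw [ac_or (fun _ => rfl)]
  rintro ⟨x, h⟩
  have e : D.kidL (cDig none u r ⟨0, hn⟩ κ) x = D.digK none u r ⟨0, hn⟩ κ x.2.1 := rfl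
  rw [e] at h
  simp only [digK, Option.elim_none] at h
  rw [ifP_T] at h
  exact not_ac_dead h

theorem dec_sound (r : Bool) (κ : D.Cell ⊕ D.Tri) (n : ℕ) (hn : n < D.m + 1) (L : Frame D.p D.b)
    (hA : Ac (cDig none false r ⟨n, hn⟩ κ) L) :
    ∃ L', D.STEP r n L L' ∧ D.Vr r L n = D.Vr r L' n + 1 ∧ Ac (kontC κ) L' := by
  induction n generalizing L with
  | zero => exact absurd hA (ac_dig_zero _ _ _ _ _)
  | succ n ih =>
    have hnm : n + 1 ≤ D.m := by omega
    have hQ := two_pow_pos'' D.b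
    by_cases h0 : D.dval (L (D.col r (n + 1))) ≠ 0
    · rw [ac_dec_nz r hn κ L h0] at hA
      refine ⟨_, step_dvec r hnm L _, ?_, hA⟩
      have hlt := dval_lt (L (D.col r (n + 1)))
      rw [upd_val r hnm L (D.ds (D.dval (L (D.col r (n + 1))) - 1)), dval_ds (by omega), Vr_succ]
      omega
    · push Not at h0
      rw [ac_dec_z r hn κ L h0] at hA
      obtain ⟨L2, hS, hV, hK⟩ := ih (by omega) _ hA
      refine ⟨L2, step_comp r hnm L L2 _ hS, ?_, hK⟩
      have e1 : L2 (D.col r (n + 1)) = D.ds (2 ^ D.b - 1) := by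
        rw [hS.1 (n + 1) (by omega) hnm]
        exact upd_self r hnm L _
      rw [upd_low r hnm] at hV
      rw [Vr_succ, Vr_succ, e1, dval_ds (by omega), h0, hV]
      have : 2 ^ D.b * (D.Vr r L2 n + 1) = 2 ^ D.b * D.Vr r L2 n + 2 ^ D.b := by ring
      omega

theorem dec_complete (r : Bool) (κ : D.Cell ⊕ D.Tri) (n : ℕ) (hn : n < D.m + 1)
    (L : Frame D.p D.b) (hpos : 1 ≤ D.Vr r L n)
    (hK : ∀ L', D.STEP r n L L' → D.Vr r L n = D.Vr r L' n + 1 → Ac (kontC κ) L') :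
    Ac (cDig none false r ⟨n, hn⟩ κ) L := by
  induction n generalizing L with
  | zero => simp [Vr] at hpos
  | succ n ih =>
    have hnm : n + 1 ≤ D.m := by omega
    have hQ := two_pow_pos'' D.b
    by_cases h0 : D.dval (L (D.col r (n + 1))) ≠ 0
    · rw [ac_dec_nz r hn κ L h0]
      refine hK _ (step_dvec r hnm L _) ?_
      have hlt := dval_lt (L (D.col r (n + 1)))
      rw [upd_val r hnm L (D.ds (D.dval (L (D.col r (n + 1))) - 1)), dval_ds (by omega), Vr_succ]
      omega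
    · push Not at h0
      rw [ac_dec_z r hn κ L h0]
      have hval : D.Vr r L (n + 1) = 2 ^ D.b * D.Vr r L n := by
        rw [Vr_succ, h0, zero_add]
      have hpos2 : 1 ≤ D.Vr r L n := by
        rw [hval] at hpos
        rcases Nat.eq_zero_or_pos (D.Vr r L n) with h | h
        · rw [h] at hpos
          simp at hpos
        · exact h
      refine ih (by omega) _ (by rw [upd_low r hnm]; exact hpos2) fun L2 hS hV => ?_
      refine hK L2 (step_comp r hnm L L2 _ hS) ?_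
      have e1 : L2 (D.col r (n + 1)) = D.ds (2 ^ D.b - 1) := by
        rw [hS.1 (n + 1) (by omega) hnm]
        exact upd_self r hnm L _
      rw [upd_low r hnm] at hV
      rw [hval, Vr_succ, e1, dval_ds (by omega), hV]
      have : 2 ^ D.b * (D.Vr r L2 n + 1) = 2 ^ D.b * D.Vr r L2 n + 2 ^ D.b := by ring
      omega

theorem inc_sound (r : Bool) (κ : D.Cell ⊕ D.Tri) (n : ℕ) (hn : n < D.m + 1) (L : Frame D.p D.b)
    (hA : Ac (cDig none true r ⟨n, hn⟩ κ) L) :
    ∃ L', D.STEP r n L L' ∧ D.Vr r L' n = D.Vr r L n + 1 ∧ Ac (kontC κ) L' := by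
  induction n generalizing L with
  | zero => exact absurd hA (ac_dig_zero _ _ _ _ _)
  | succ n ih =>
    have hnm : n + 1 ≤ D.m := by omega
    have hQ := two_pow_pos'' D.b
    by_cases h0 : D.dval (L (D.col r (n + 1))) + 1 < 2 ^ D.b
    · rw [ac_inc_nc r hn κ L h0] at hA
      refine ⟨_, step_dvec r hnm L _, ?_, hA⟩
      rw [upd_val r hnm L (D.ds (D.dval (L (D.col r (n + 1))) + 1)), dval_ds h0, Vr_succ]
      omega
    · have hlt := dval_lt (L (D.col r (n + 1)))
      have hc : D.dval (L (D.col r (n + 1))) + 1 = 2 ^ D.b := by omega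
      rw [ac_inc_c r hn κ L hc] at hA
      obtain ⟨L2, hS, hV, hK⟩ := ih (by omega) _ hA
      refine ⟨L2, step_comp r hnm L L2 _ hS, ?_, hK⟩
      have e1 : L2 (D.col r (n + 1)) = D.ds 0 := by
        rw [hS.1 (n + 1) (by omega) hnm]
        exact upd_self r hnm L _
      rw [upd_low r hnm] at hV
      rw [Vr_succ, Vr_succ, e1, dval_ds hQ, hV]
      have : 2 ^ D.b * (D.Vr r L n + 1) = 2 ^ D.b * D.Vr r L n + 2 ^ D.b := by ring
      omega

theorem inc_complete (r : Bool) (κ : D.Cell ⊕ D.Tri) (n : ℕ) (hn : n < D.m + 1)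
    (L : Frame D.p D.b) (hlt : D.Vr r L n + 1 < (2 ^ D.b) ^ n)
    (hK : ∀ L', D.STEP r n L L' → D.Vr r L' n = D.Vr r L n + 1 → Ac (kontC κ) L') :
    Ac (cDig none true r ⟨n, hn⟩ κ) L := by
  induction n generalizing L with
  | zero => simp [Vr] at hlt
  | succ n ih =>
    have hnm : n + 1 ≤ D.m := by omega
    have hQ := two_pow_pos'' D.b
    by_cases h0 : D.dval (L (D.col r (n + 1))) + 1 < 2 ^ D.b
    · rw [ac_inc_nc r hn κ L h0]
      refine hK _ (step_dvec r hnm L _) ?_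
      rw [upd_val r hnm L (D.ds (D.dval (L (D.col r (n + 1))) + 1)), dval_ds h0, Vr_succ]
      omega
    · have hdv := dval_lt (L (D.col r (n + 1)))
      have hc : D.dval (L (D.col r (n + 1))) + 1 = 2 ^ D.b := by omega
      rw [ac_inc_c r hn κ L hc]
      have hval : D.Vr r L (n + 1) = D.dval (L (D.col r (n + 1))) + 2 ^ D.b * D.Vr r L n :=
        Vr_succ r L n
      have hlt2 : D.Vr r L n + 1 < (2 ^ D.b) ^ n := by
        rw [hval] at hlt
        have e : (2 ^ D.b) ^ (n + 1) = 2 ^ D.b * (2 ^ D.b) ^ n := by ring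
        rw [e] at hlt
        have e2 : 2 ^ D.b * (D.Vr r L n + 1) < 2 ^ D.b * (2 ^ D.b) ^ n := by
          calc 2 ^ D.b * (D.Vr r L n + 1)
              = D.dval (L (D.col r (n + 1))) + 2 ^ D.b * D.Vr r L n + 1 := by
                rw [mul_add, mul_one]
                omega
            _ < 2 ^ D.b * (2 ^ D.b) ^ n := hlt
        exact Nat.lt_of_mul_lt_mul_left e2
      refine ih (by omega) _ (by rw [upd_low r hnm]; exact hlt2) fun L2 hS hV => ?_
      refine hK L2 (step_comp r hnm L L2 _ hS) ?_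
      have e1 : L2 (D.col r (n + 1)) = D.ds 0 := by
        rw [hS.1 (n + 1) (by omega) hnm]
        exact upd_self r hnm L _
      rw [upd_low r hnm] at hV
      rw [hval, Vr_succ, e1, dval_ds hQ, hV]
      have : 2 ^ D.b * (D.Vr r L n + 1) = 2 ^ D.b * D.Vr r L n + 2 ^ D.b := by ring
      omega

end Par

end

end Vale.Agent.Lib.P310.TMC
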