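import Vale.Agent.Lib.P310.TMC.Sim
import Vale.Agent.Lib.P310.N.Final

/-!
The reduction from Turing machines to `k`-WL equivalence.
-/

namespace Vale.Agent.Lib.P310.TMC

open scoped Classical
open Finset
open Vale.Agent.Lib.P310 Vale.Agent.Lib.P310.N

noncomputable section

namespace Par

variable {D : Par}

/-! ### A frame with given time and position -/

/-- The digits of the frame. -/
def B1 (D : Par) (t s : ℕ) (c : Fin D.p) : D.Lb :=
  if c.val < D.m then D.ds (t / (2 ^ D.b) ^ (D.m - (c.val + 1)) % 2 ^ D.b)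
  else if c.val < 2 * D.m then D.ds (s / (2 ^ D.b) ^ (D.m - (c.val - D.m + 1)) % 2 ^ D.b)
  else D.ds 0

/-- The frame. -/
def L1 (D : Par) (t s : ℕ) : Frame D.p D.b :=
  fun c => if c = D.zc then ∑ c' ∈ univ.erase D.zc, D.B1 t s c' else D.B1 t s c

private lemma sg_self3 {b : ℕ} (v : Sg b) : v + v = 0 := by
  funext i
  simpa using CharTwo.add_self_eq_zero (v i)

lemma L1_sum (t s : ℕ) : ∑ c, D.L1 t s c = 0 := by
  rw [← Finset.add_sum_erase univ _ (Finset.mem_univ D.zc)]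
  have e : ∑ c ∈ univ.erase D.zc, D.L1 t s c = ∑ c ∈ univ.erase D.zc, D.B1 t s c := by
    apply Finset.sum_congr rfl
    intro c hc
    simp only [L1]
    rw [if_neg (Finset.ne_of_mem_erase hc)]
  rw [e]
  simp only [L1, if_true]
  exact sg_self3 _

lemma L1_col (t s : ℕ) (r : Bool) {n : ℕ} (h1 : 1 ≤ n) (h2 : n ≤ D.m) :
    D.L1 t s (D.col r n) = D.B1 t s (D.col r n) := by
  simp only [L1]
  rw [if_neg (col_ne_z r h1 h2)]

lemma L1_false (t s : ℕ) (hT : t < (2 ^ D.b) ^ D.m) (n : ℕ) (hn : n ≤ D.m) :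
    D.Vr false (D.L1 t s) n = t / (2 ^ D.b) ^ (D.m - n) := by
  induction n with
  | zero =>
    rw [Nat.sub_zero, Nat.div_eq_of_lt hT]
    rfl
  | succ n ih =>
    rw [Vr_succ, ih (by omega), L1_col t s false (by omega) hn]
    have hv := col_val (D := D) false (show 1 ≤ n + 1 by omega) hn
    simp only [Bool.false_eq_true, if_false, Nat.add_sub_cancel] at hv
    have hlt : (D.col false (n + 1)).val < D.m := by omega
    simp only [B1]
    rw [if_pos hlt, hv, dval_ds (Nat.mod_lt _ (by positivity))]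
    have e3 : D.m - n = (D.m - (n + 1)) + 1 := by omega
    rw [e3, pow_succ, ← Nat.div_div_eq_div_mul]
    exact Nat.mod_add_div _ _

lemma L1_true (t s : ℕ) (hT : s < (2 ^ D.b) ^ D.m) (n : ℕ) (hn : n ≤ D.m) :
    D.Vr true (D.L1 t s) n = s / (2 ^ D.b) ^ (D.m - n) := by
  induction n with
  | zero =>
    rw [Nat.sub_zero, Nat.div_eq_of_lt hT]
    rfl
  | succ n ih =>
    rw [Vr_succ, ih (by omega), L1_col t s true (by omega) hn]
    have hv := col_val (D := D) true (show 1 ≤ n + 1 by omega) hn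
    simp only [if_true] at hv
    have hlt : ¬ (D.col true (n + 1)).val < D.m := by omega
    have hlt2 : (D.col true (n + 1)).val < 2 * D.m := by omega
    have hv2 : (D.col true (n + 1)).val - D.m + 1 = n + 1 := by omega
    simp only [B1]
    rw [if_neg hlt, if_pos hlt2, hv2, dval_ds (Nat.mod_lt _ (by positivity))]
    have e3 : D.m - n = (D.m - (n + 1)) + 1 := by omega
    rw [e3, pow_succ, ← Nat.div_div_eq_div_mul]
    exact Nat.mod_add_div _ _

lemma L1_top (t s : ℕ) (hm : 1 ≤ D.m) (ht : t < (2 ^ D.b) ^ (D.m - 1)) :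
    D.L1 t s (D.col false 1) = D.ds 0 := by
  rw [L1_col t s false le_rfl hm]
  have hv := col_val (D := D) false (show 1 ≤ 1 by omega) hm
  simp only [Bool.false_eq_true, if_false, Nat.sub_self] at hv
  have hlt : (D.col false 1).val < D.m := by omega
  simp only [B1]
  rw [if_pos hlt, hv, zero_add, Nat.div_eq_of_lt ht, Nat.zero_mod]

/-! ### The main equivalence -/

/-- A frame is accepted at the start iff the machine accepts in time. -/
theorem exists_iff (hm : 1 ≤ D.m) (hb : 2 ≤ D.b) :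
    (∃ L : Frame D.p D.b, Ac (cStart : D.Ctl) L) ↔
      D.AcceptsWithin ((2 ^ D.b) ^ (D.m - 1) - 1) := by
  constructor
  · rintro ⟨L, h⟩
    exact start_sound hm L h
  · rintro ⟨t, ht, hq⟩
    have hpos : 0 < (2 ^ D.b) ^ (D.m - 1) := by positivity
    have htl : t < (2 ^ D.b) ^ (D.m - 1) := by omega
    have hTg := Tg_val (D := D) (by omega) D.m hm
    have hh := head_bound (D := D) t
    rw [abs_le] at hh
    obtain ⟨hh1, hh2⟩ := hh
    obtain ⟨n, hn⟩ : ∃ n, D.m = n + 1 := ⟨D.m - 1, by omega⟩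
    have hpw : (2 ^ D.b) ^ D.m = 2 ^ D.b * (2 ^ D.b) ^ (D.m - 1) := by
      rw [hn]
      simp only [Nat.add_sub_cancel]
      ring
    have h4 : 4 ≤ 2 ^ D.b := by
      calc 4 = 2 ^ 2 := by norm_num
        _ ≤ 2 ^ D.b := Nat.pow_le_pow_right (by omega) hb
    have hbig : 4 * (2 ^ D.b) ^ (D.m - 1) ≤ (2 ^ D.b) ^ D.m := by
      rw [hpw]
      exact Nat.mul_le_mul_right _ h4
    set s := ((D.run t).h + (D.Tg D.m : ℤ)).toNat with hs
    have hp0 : 0 ≤ (D.run t).h + (D.Tg D.m : ℤ) := by omega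
    have hp1 : (s : ℤ) = (D.run t).h + (D.Tg D.m : ℤ) := Int.toNat_of_nonneg hp0
    have hst : s < (2 ^ D.b) ^ D.m := by omega
    have htm : t < (2 ^ D.b) ^ D.m := by omega
    refine ⟨D.L1 t s, start_complete hm hb _ (L1_sum t s) (L1_top t s hm htl) htl hq ?_ ?_⟩
    · rw [L1_false t s htm D.m le_rfl, Nat.sub_self, pow_zero, Nat.div_one]
    · rw [L1_true t s hst D.m le_rfl, Nat.sub_self, pow_zero, Nat.div_one, hp1]

/-- The equivalence of the two graphs. -/
theorem wl_iff (hk : 2 ≤ D.p) (hm : 1 ≤ D.m) (hb : 2 ≤ D.b) :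
    WLEquiv D.p (D.sysT.Gr 0) (D.sysT.Gr 1) ↔ ¬ D.AcceptsWithin ((2 ^ D.b) ^ (D.m - 1) - 1) := by
  constructor
  · intro hW hA
    obtain ⟨L, hL⟩ := (exists_iff hm hb).2 hA
    exact D.prog.not_wlEquiv_of_acc hk (nG cStart) nA (Fintype.equivFin _) hL
      (acc_nA.2 (Prog.Acc.code hL)) hW
  · intro hA
    exact D.prog.wlEquiv_of_not_acc hk (nG cStart) nA (Fintype.equivFin _)
      (fun L hL => hA (start_sound hm L hL))

/-! ### The size -/

/-- The base of the size bound. -/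
def baseN (k b c : ℕ) : ℕ := k * 2 ^ b * (c + 2) ^ 3

private lemma card_cell : Fintype.card D.Cell = Fintype.card D.Γ * (Fintype.card D.Λ + 1) := by
  simp [Cell, Fintype.card_prod, Fintype.card_option]

private lemma card_tri : Fintype.card D.Tri = (Fintype.card D.Γ * (Fintype.card D.Λ + 1)) ^ 3 := by
  simp only [Tri, Cell, Fintype.card_prod, Fintype.card_option]
  ring

private lemma baseN_ge (hk : 2 ≤ D.p) (c : ℕ) : 16 ≤ baseN D.p D.b c := by
  unfold baseN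
  have h1 : 1 ≤ 2 ^ D.b := Nat.one_le_two_pow
  have h2 : 8 ≤ (c + 2) ^ 3 := by
    calc 8 = 2 ^ 3 := by norm_num
      _ ≤ (c + 2) ^ 3 := Nat.pow_le_pow_left (by omega) 3
  calc 16 = 2 * 1 * 8 := by norm_num
    _ ≤ D.p * 2 ^ D.b * (c + 2) ^ 3 := Nat.mul_le_mul (Nat.mul_le_mul hk h1) h2

private lemma card_ctl_le (hk : 2 ≤ D.p) :
    Fintype.card D.Ctl ≤ 14 * baseN D.p D.b (Fintype.card D.Γ * (Fintype.card D.Λ + 1)) := by
  have hN := baseN_ge (D := D) hk (Fintype.card D.Γ * (Fintype.card D.Λ + 1))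
  have hm0 : D.m + 1 ≤ D.p := by have := D.hp; omega
  have hcard : Fintype.card D.Ctl =
      Fintype.card D.Cell + (Fintype.card D.Cell * (D.m + 1) + (2 * (D.m + 1) +
        (Fintype.card D.Tri * 2 + (1 + (Fintype.card D.Lb + 1) * (2 * (2 * ((D.m + 1) *
          (Fintype.card D.Cell + Fintype.card D.Tri))))))))  := by
    simp only [Ctl, Fintype.card_sum, Fintype.card_prod, Fintype.card_option, Fintype.card_bool,
      Fintype.card_fin, Fintype.card_unit]
  rw [hcard, card_tri, card_cell, card_lb]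
  generalize Fintype.card D.Γ * (Fintype.card D.Λ + 1) = c at *
  have hq : 1 ≤ 2 ^ D.b := Nat.one_le_two_pow
  unfold baseN at *
  generalize (2:ℕ) ^ D.b = q at *
  generalize D.m + 1 = m1 at *
  have hX : c ^ 3 ≤ (c + 2) ^ 3 := Nat.pow_le_pow_left (by omega) 3
  have hc : c ≤ (c + 2) ^ 3 := by
    calc c ≤ c + 2 := by omega
      _ = (c + 2) ^ 1 := by ring
      _ ≤ (c + 2) ^ 3 := Nat.pow_le_pow_right (by omega) (by omega)
  have hcc : c + c ^ 3 ≤ (c + 2) ^ 3 := by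
    ring_nf
    nlinarith [Nat.zero_le c, Nat.zero_le (c ^ 2)]
  have hpq : D.p ≤ D.p * q := Nat.le_mul_of_pos_right _ hq
  generalize (c + 2) ^ 3 = X at *
  generalize D.p = k at *
  have hXpos : 1 ≤ X := by
    rcases Nat.eq_zero_or_pos X with h0 | h0
    · subst h0
      simp at hN
    · exact h0
  have t0 : X ≤ k * q * X := Nat.le_mul_of_pos_left _ (by nlinarith)
  have t1 : c * m1 ≤ k * q * X := by
    calc c * m1 ≤ X * (k * q) := Nat.mul_le_mul hc (by omega)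
      _ = k * q * X := by ring
  have t2 : m1 ≤ k * q * X := by
    calc m1 ≤ k * q * 1 := by omega
      _ ≤ k * q * X := Nat.mul_le_mul_left _ hXpos
  have t4 : m1 * (q * (c + c ^ 3)) ≤ k * q * X := by
    calc m1 * (q * (c + c ^ 3)) ≤ k * (q * X) := Nat.mul_le_mul hm0 (Nat.mul_le_mul_left _ hcc)
      _ = k * q * X := by ring
  have t3 : m1 * (c + c ^ 3) ≤ k * q * X := by
    calc m1 * (c + c ^ 3) ≤ (k * q) * X := Nat.mul_le_mul (by omega) hcc
      _ = k * q * X := by ring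
  have e4 : (q + 1) * (2 * (2 * (m1 * (c + c ^ 3)))) =
      4 * (m1 * (q * (c + c ^ 3))) + 4 * (m1 * (c + c ^ 3)) := by ring
  rw [e4]
  omega

private lemma card_bn_le (hk : 2 ≤ D.p) :
    Fintype.card D.Bn ≤ baseN D.p D.b (Fintype.card D.Γ * (Fintype.card D.Λ + 1)) := by
  have hcard : Fintype.card D.Bn = Fintype.card D.Tri * (Fintype.card D.Lb * 2) := by
    simp only [Bn, Fintype.card_prod, Fintype.card_bool]
  rw [hcard, card_tri, card_lb]
  unfold baseN
  generalize Fintype.card D.Γ * (Fintype.card D.Λ + 1) = c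
  have hX : c ^ 3 ≤ (c + 2) ^ 3 := Nat.pow_le_pow_left (by omega) 3
  calc c ^ 3 * (2 ^ D.b * 2) = 2 * 2 ^ D.b * c ^ 3 := by ring
    _ ≤ D.p * 2 ^ D.b * (c + 2) ^ 3 :=
      Nat.mul_le_mul (Nat.mul_le_mul_right _ hk) hX

/-- The number of rows. -/
lemma card_row (Q : Prog D.p D.b) (s1 s2 : Q.Node) :
    Fintype.card (Q.spec s1 s2).net.Row =
      Fintype.card Q.Ac + (Fintype.card Q.Ga * Fintype.card Q.Br + 1) +
        (Fintype.card Q.Re + Fintype.card Q.Wr +
          2 * (Fintype.card Q.Ga * Fintype.card Q.Br) + 3) * len D.p := by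
  show Fintype.card (Q.Ac ⊕ ((Q.Ga × Q.Br) ⊕ Unit) ⊕
      ((Q.Re ⊕ Q.Wr ⊕ (Q.Ga × Q.Br × Bool) ⊕ Bool ⊕ Unit) × Fin (len D.p))) = _
  simp only [Fintype.card_sum, Fintype.card_prod, Fintype.card_unit, Fintype.card_bool,
    Fintype.card_fin]
  ring

/-- The arithmetic of the size bound. -/
private lemma size_arith {N p q gb r w rows : ℕ} (hN : 16 ≤ N) (hpN : 8 * p ≤ N)
    (hp2 : 2 ≤ p) (hpb : p * q ≤ N) (hbN : q ≤ N)
    (hg : gb ≤ N ^ 3) (hr : r ≤ N ^ 3) (hw : w ≤ N ^ 3)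
    (hrows : rows = 1 + (gb + 1) + (r + w + 2 * gb + 3) * len p) {E : ℕ}
    (hE : E ≤ rows * p * q ^ 2) :
    (E * 2 ^ 5) * (1 + E * (E * 2 ^ 5 + 2)) ≤ N ^ 30 := by
  have hlen : len p ≤ 2 * N := by
    unfold len dd
    omega
  have h1 : rows ≤ N ^ 6 := by
    subst hrows
    have a1 : r + w + 2 * gb + 3 ≤ N ^ 3 + N ^ 3 + 2 * N ^ 3 + 3 := by omega
    have a2 := Nat.mul_le_mul a1 hlen
    refine le_trans (Nat.add_le_add (Nat.add_le_add le_rfl (Nat.add_le_add_right hg 1)) a2) ?_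
    obtain ⟨t, rfl⟩ : ∃ t, N = t + 16 := ⟨N - 16, by omega⟩
    ring_nf
    omega
  have h2 : p * q ^ 2 ≤ N ^ 2 := by
    calc p * q ^ 2 = (p * q) * q := by ring
      _ ≤ N * N := Nat.mul_le_mul hpb hbN
      _ = N ^ 2 := by ring
  have h3 : E ≤ N ^ 8 := by
    calc E ≤ rows * p * q ^ 2 := hE
      _ = rows * (p * q ^ 2) := by ring
      _ ≤ N ^ 6 * N ^ 2 := Nat.mul_le_mul h1 h2
      _ = N ^ 8 := by ring
  have h32 : (2:ℕ) ^ 5 ≤ N ^ 2 := by nlinarith
  have h4 : E * 2 ^ 5 ≤ N ^ 10 := by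
    calc E * 2 ^ 5 ≤ N ^ 8 * N ^ 2 := Nat.mul_le_mul h3 h32
      _ = N ^ 10 := by ring
  have hp10 : 1 ≤ N ^ 10 := Nat.one_le_pow _ _ (by omega)
  have h5 : E * 2 ^ 5 + 2 ≤ N ^ 11 := by
    calc E * 2 ^ 5 + 2 ≤ N ^ 10 + 2 * N ^ 10 := by omega
      _ = 3 * N ^ 10 := by ring
      _ ≤ N * N ^ 10 := Nat.mul_le_mul_right _ (by omega)
      _ = N ^ 11 := by ring
  have h6 : E * (E * 2 ^ 5 + 2) ≤ N ^ 19 := by
    calc E * (E * 2 ^ 5 + 2) ≤ N ^ 8 * N ^ 11 := Nat.mul_le_mul h3 h5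
      _ = N ^ 19 := by ring
  have hp19 : 1 ≤ N ^ 19 := Nat.one_le_pow _ _ (by omega)
  have h7 : 1 + E * (E * 2 ^ 5 + 2) ≤ N ^ 20 := by
    calc 1 + E * (E * 2 ^ 5 + 2) ≤ 2 * N ^ 19 := by omega
      _ ≤ N * N ^ 19 := Nat.mul_le_mul_right _ (by omega)
      _ = N ^ 20 := by ring
  calc (E * 2 ^ 5) * (1 + E * (E * 2 ^ 5 + 2)) ≤ N ^ 10 * N ^ 20 := Nat.mul_le_mul h4 h7
    _ = N ^ 30 := by ring

/-- The size bound. -/
theorem card_vtx_bound (hk : 2 ≤ D.p) (hb : 2 ≤ D.b) (c : ZMod 2) :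
    Fintype.card (D.sysT.Vtx c) ≤
      (D.p * 2 ^ D.b * (Fintype.card D.Γ * (Fintype.card D.Λ + 1) + 2) ^ 3) ^ 30 := by
  set Sp := D.prog.spec (nG cStart) nA with hSp
  have hd : ∀ e, (D.sysT.vars e).card ≤ 5 := by
    intro e
    have h1 := Prog.vars_card Sp.net e
    have h2 : (Sp.net.inc e.row).card ≤ 3 := Prog.rinc_card e.row
    exact le_trans h1 (by omega)
  have hc := XorSys.card_vtx_le D.sysT hd c
  refine le_trans hc ?_
  have hN := baseN_ge (D := D) hk (Fintype.card D.Γ * (Fintype.card D.Λ + 1))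
  have hC := card_ctl_le (D := D) hk
  have hB := card_bn_le (D := D) hk
  have hq : 1 ≤ 2 ^ D.b := Nat.one_le_two_pow
  have hX : 8 ≤ (Fintype.card D.Γ * (Fintype.card D.Λ + 1) + 2) ^ 3 := by
    calc 8 = 2 ^ 3 := by norm_num
      _ ≤ _ := Nat.pow_le_pow_left (by omega) 3
  set N := baseN D.p D.b (Fintype.card D.Γ * (Fintype.card D.Λ + 1)) with hNdef
  have h8 : 8 * D.p ≤ N := by
    calc 8 * D.p = D.p * 1 * 8 := by ring
      _ ≤ D.p * 2 ^ D.b * _ := Nat.mul_le_mul (Nat.mul_le_mul_left _ hq) hX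
  have hpb : D.p * 2 ^ D.b ≤ N := Nat.le_mul_of_pos_right _ (by omega)
  have hbN : 2 ^ D.b ≤ N := by
    calc 2 ^ D.b ≤ D.p * 2 ^ D.b := Nat.le_mul_of_pos_left _ (by omega)
      _ ≤ N := hpb
  have hG : Fintype.card D.Ctl * Fintype.card D.Bn ≤ N ^ 3 := by
    calc Fintype.card D.Ctl * Fintype.card D.Bn ≤ (14 * N) * N := Nat.mul_le_mul hC hB
      _ ≤ N * N * N := Nat.mul_le_mul_right _ (Nat.mul_le_mul_right _ (by omega))
      _ = N ^ 3 := by ring
  have hRw : Fintype.card D.Rw ≤ N ^ 3 := by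
    have e : Fintype.card D.Rw = D.p * (2 ^ D.b * Fintype.card D.Ctl) := by
      simp only [Rw, Fintype.card_prod, Fintype.card_fin, card_lb]
    rw [e]
    calc D.p * (2 ^ D.b * Fintype.card D.Ctl) = (D.p * 2 ^ D.b) * Fintype.card D.Ctl := by ring
      _ ≤ N * (14 * N) := Nat.mul_le_mul hpb hC
      _ ≤ N * (N * N) := Nat.mul_le_mul_left _ (Nat.mul_le_mul_right _ (by omega))
      _ = N ^ 3 := by ring
  have hE : Fintype.card D.sysT.Eqn ≤
      (1 + (Fintype.card D.Ctl * Fintype.card D.Bn + 1) +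
        (Fintype.card D.Rw + Fintype.card D.Rw +
          2 * (Fintype.card D.Ctl * Fintype.card D.Bn) + 3) * len D.p) * D.p * (2 ^ D.b) ^ 2 := by
    have h1 := Prog.card_bk Sp.net
    have h2 : Fintype.card Sp.net.Row = 1 + (Fintype.card D.Ctl * Fintype.card D.Bn + 1) +
        (Fintype.card D.Rw + Fintype.card D.Rw +
          2 * (Fintype.card D.Ctl * Fintype.card D.Bn) + 3) * len D.p :=
      card_row D.prog (nG cStart) nA
    rw [h2] at h1
    exact h1
  exact size_arith hN h8 hk hpb hbN hG hRw hRw rfl hE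

/-- The two graphs have the same number of vertices. -/
theorem card_vtx_eq' :
    Fintype.card (D.sysT.Vtx 1) = Fintype.card (D.sysT.Vtx 0) :=
  XorSys.card_vtx_eq _ (fun e => Prog.vars_ne _ e)

end Par

end

end Vale.Agent.Lib.P310.TMC
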