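import Vale.Agent.Lib.P310.TMC.Gadgets

/-!
The program of a machine simulates the space-time diagram of the machine.
-/

namespace Vale.Agent.Lib.P310.TMC

open scoped Classical
open Finset
open Vale.Agent.Lib.P310 Vale.Agent.Lib.P310.N

noncomputable section

namespace Par

variable {D : Par}

/-! ### The run -/

lemma run_succ (D : Par) (t : ℕ) :
    D.run (t + 1) = D.stepA (D.run t) (D.δ (D.run t).q ((D.run t).tape (D.run t).h)) := by
  simp only [run]
  rw [Function.iterate_succ_apply']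

variable (D) in
/-- The content of cell `x` at time `t`: the tape symbol and, if the head is there, the state. -/
def cell (t : ℕ) (x : ℤ) : D.Cell :=
  ((D.run t).tape x, if (D.run t).h = x then some (D.run t).q else none)

/-- The local rule, for one step. -/
private lemma rule_key (q : D.Λ) (h : ℤ) (τ : ℤ → D.Γ) (x : ℤ) :
    (Function.update τ h (D.δ q (τ h)).2.1 x,
      if h + ifP ((D.δ q (τ h)).2.2 = true) (1:ℤ) (-1) = x then some (D.δ q (τ h)).1 else none)
    = D.rule (τ (x - 1), if h = x - 1 then some q else none) (τ x, if h = x then some q else none)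
        (τ (x + 1), if h = x + 1 then some q else none) := by
  by_cases h0 : h = x
  · subst h0
    have n1 : ¬ h = h - 1 := by omega
    have n2 : ¬ h = h + 1 := by omega
    cases hb : (D.δ q (τ h)).2.2 with
    | true =>
      have n3 : ¬ h + 1 = h := by omega
      simp [rule, mv, hb, n1, n2, n3, ifP]
    | false =>
      have n3 : ¬ h + -1 = h := by omega
      simp [rule, mv, hb, n1, n2, n3, ifP]
  · have hup : Function.update τ h (D.δ q (τ h)).2.1 x = τ x :=
      Function.update_of_ne (fun e => h0 e.symm) _ _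
    by_cases h1 : h = x - 1
    · have hx : x = h + 1 := by omega
      subst hx
      have e : h + 1 - 1 = h := by ring
      have n2 : ¬ h = h + 1 + 1 := by omega
      rw [hup, e]
      cases hb : (D.δ q (τ h)).2.2 with
      | true => simp [rule, mv, hb, h0, n2, ifP]
      | false =>
        have n3 : ¬ h + -1 = h + 1 := by omega
        simp [rule, mv, hb, h0, n2, n3, ifP]
    · by_cases h2 : h = x + 1
      · have hx : x = h - 1 := by omega
        subst hx
        have e : h - 1 + 1 = h := by ring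
        rw [hup, e]
        cases hb : (D.δ q (τ h)).2.2 with
        | true =>
          have n3 : ¬ h + 1 = h - 1 := by omega
          simp [rule, mv, hb, h0, h1, n3, ifP]
        | false =>
          have n3 : h + -1 = h - 1 := by ring
          simp [rule, mv, hb, h0, h1, n3, ifP]
      · rw [hup]
        have n3 : ¬ h + ifP ((D.δ q (τ h)).2.2 = true) (1:ℤ) (-1) = x := by
          simp only [ifP]
          split_ifs <;> omega
        simp [rule, mv, h0, h1, h2, n3]

/-- The space-time diagram obeys the local rule. -/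
theorem cell_succ (t : ℕ) (x : ℤ) :
    D.cell (t + 1) x = D.rule (D.cell t (x - 1)) (D.cell t x) (D.cell t (x + 1)) := by
  have h := rule_key (D := D) (D.run t).q (D.run t).h (D.run t).tape x
  simp only [cell]
  rw [← h, run_succ]
  rfl

/-- The head moves one cell per step. -/
theorem head_bound (t : ℕ) : |(D.run t).h| ≤ t := by
  induction t with
  | zero => simp [run]
  | succ t ih =>
    rw [run_succ]
    simp only [stepA, ifP]
    rw [abs_le] at ih ⊢
    push_cast
    split_ifs <;> constructor <;> linarith [ih.1, ih.2]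

/-- The diagram at time zero. -/
theorem cell_zero (x : ℤ) : D.cell 0 x = (D.blank, if x = 0 then some D.q0 else none) := by
  simp [cell, run, eq_comm]

/-! ### The tests -/

/-- Uniqueness of a digit. -/
lemma digit_unique {Q d d' A B : ℕ} (h : d < Q) (h' : d' < Q) (e : d + Q * A = d' + Q * B) :
    d = d' ∧ A = B := by
  have h1 : d = d' := by
    have e2 := congrArg (· % Q) e
    simp only [Nat.add_mul_mod_self_left] at e2
    rwa [Nat.mod_eq_of_lt h, Nat.mod_eq_of_lt h'] at e2
  subst h1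
  have hQ : 0 < Q := by omega
  exact ⟨rfl, Nat.eq_of_mul_eq_mul_left hQ (by omega)⟩

/-- The digit pattern of the start position. -/
def dg (b n : ℕ) : ℕ := ifP (n = 1) (2 ^ b / 2) 0

variable (D) in
/-- The start position. -/
def Tg : ℕ → ℕ
  | 0 => 0
  | n + 1 => dg D.b (n + 1) + 2 ^ D.b * Tg n

lemma Tg_succ (n : ℕ) : D.Tg (n + 1) = dg D.b (n + 1) + 2 ^ D.b * D.Tg n := rfl

lemma dg_lt (b n : ℕ) : dg b n < 2 ^ b := by
  have h : 0 < 2 ^ b := by positivity
  simp only [dg, ifP]
  split_ifs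
  · exact Nat.div_lt_self h (by norm_num)
  · exact h

/-- The start position is the middle of the register. -/
lemma Tg_val (hb : 1 ≤ D.b) : ∀ n : ℕ, 1 ≤ n → 2 * D.Tg n = (2 ^ D.b) ^ n := by
  intro n hn
  induction n, hn using Nat.le_induction with
  | base =>
    have e : D.Tg 1 = 2 ^ D.b / 2 := by
      simp [Tg, dg, ifP]
    rw [e, pow_one]
    obtain ⟨c, hc⟩ : ∃ c, D.b = c + 1 := ⟨D.b - 1, by omega⟩
    rw [hc, pow_succ, Nat.mul_div_cancel _ (by norm_num)]
    ring
  | succ n hn ih =>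
    have e2 : dg D.b (n + 1) = 0 := by
      simp only [dg]
      rw [ifP_neg (by omega)]
    rw [Tg_succ, e2, zero_add, pow_succ, ← ih]
    ring

lemma brOf_ok (a : D.Cell) (f : Bool) (v : D.Lb) : ((a, a, a), v, f) = ((a, a, a), v, f) := rfl

theorem initT_iff (a : D.Cell) (n : ℕ) (hn : n < D.m + 1) (L : Frame D.p D.b) :
    Ac (cInit a ⟨n, hn⟩) L ↔ D.Vr false L n = 0 ∧
      Ac (ifP (a = (D.blank, some D.q0)) (cPos true (Fin.last _))
        (ifP (a = (D.blank, none)) (cPos false (Fin.last _)) cDead)) L := by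
  induction n with
  | zero =>
    rw [ac_or (fun _ => rfl)]
    constructor
    · rintro ⟨x, h⟩
      have e : D.kidL (cInit a ⟨0, hn⟩) x = D.initK a ⟨0, hn⟩ x.2.1 := rfl
      rw [e] at h
      simp only [initK, ifP_T] at h
      exact ⟨rfl, h⟩
    · rintro ⟨_, h⟩
      refine ⟨brOf 0, ?_⟩
      have e : D.kidL (cInit a ⟨0, hn⟩) (brOf 0) = D.initK a ⟨0, hn⟩ 0 := rfl
      rw [e]
      simp only [initK, ifP_T]
      exact h
  | succ n ih =>
    have hsw : Ac (cInit a ⟨n + 1, hn⟩) L ↔ Ac (ifP (D.dval (L (D.col false (n + 1))) = 0)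
        (cInit a ⟨n, by omega⟩) cDead) L := by
      refine ac_sw (f := fun v => ifP (D.dval v = 0) (cInit a ⟨n, by omega⟩) cDead) ?_
        (fun _ => rfl)
      intro x
      show D.initK a ⟨n + 1, hn⟩ x.2.1 = _
      simp only [initK]
      rw [ifP_neg (by simp)]
      rfl
    rw [hsw, Vr_succ]
    have hQ : 0 < 2 ^ D.b := by positivity
    by_cases h0 : D.dval (L (D.col false (n + 1))) = 0
    · rw [ifP_pos h0, ih (by omega), h0, zero_add]
      constructor
      · rintro ⟨h1, h2⟩
        exact ⟨by rw [h1, mul_zero], h2⟩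
      · rintro ⟨h1, h2⟩
        refine ⟨?_, h2⟩
        rcases Nat.mul_eq_zero.1 h1 with h | h
        · omega
        · exact h
    · rw [ifP_neg h0]
      constructor
      · intro h
        exact absurd h not_ac_dead
      · rintro ⟨h1, _⟩
        omega

theorem posEq_iff (n : ℕ) (hn : n < D.m + 1) (L : Frame D.p D.b) :
    Ac (cPos true ⟨n, hn⟩) L ↔ ∑ j, L j = 0 ∧ D.Vr true L n = D.Tg n := by
  induction n with
  | zero =>
    rw [ac_or (fun _ => rfl)]
    constructor
    · rintro ⟨x, h⟩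
      have e : D.kidL (cPos true ⟨0, hn⟩) x = D.posK true ⟨0, hn⟩ x.2.1 := rfl
      rw [e] at h
      simp only [posK, ifP_T] at h
      exact ⟨acc_nA.1 h, rfl⟩
    · rintro ⟨h, _⟩
      refine ⟨brOf 0, ?_⟩
      have e : D.kidL (cPos true ⟨0, hn⟩) (brOf 0) = D.posK true ⟨0, hn⟩ 0 := rfl
      rw [e]
      simp only [posK, ifP_T]
      exact acc_nA.2 h
  | succ n ih =>
    have hsw : Ac (cPos true ⟨n + 1, hn⟩) L ↔ Ac (ifP (D.dval (L (D.col true (n + 1))) = dg D.b (n + 1))
        (cPos true ⟨n, by omega⟩) cDead) L := by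
      refine ac_sw (f := fun v => ifP (D.dval v = dg D.b (n + 1)) (cPos true ⟨n, by omega⟩) cDead)
        ?_ (fun _ => rfl)
      intro x
      show D.posK true ⟨n + 1, hn⟩ x.2.1 = _
      simp only [posK]
      rw [ifP_neg (by simp)]
      simp only [dg, ifP_T]
      rfl
    rw [hsw, Vr_succ, Tg_succ]
    by_cases h0 : D.dval (L (D.col true (n + 1))) = dg D.b (n + 1)
    · rw [ifP_pos h0, ih (by omega), h0]
      constructor
      · rintro ⟨h1, h2⟩
        exact ⟨h1, by rw [h2]⟩
      · rintro ⟨h1, h2⟩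
        exact ⟨h1, (digit_unique (dg_lt _ _) (dg_lt _ _) h2).2⟩
    · rw [ifP_neg h0]
      constructor
      · intro h
        exact absurd h not_ac_dead
      · rintro ⟨_, h2⟩
        exact absurd (digit_unique (dval_lt _) (dg_lt _ _) h2).1 h0

theorem posNe_iff (n : ℕ) (hn : n < D.m + 1) (L : Frame D.p D.b) :
    Ac (cPos false ⟨n, hn⟩) L ↔ ∑ j, L j = 0 ∧ D.Vr true L n ≠ D.Tg n := by
  induction n with
  | zero =>
    constructor
    · intro h
      exact absurd h not_ac_dead
    · rintro ⟨_, h⟩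
      exact absurd rfl h
  | succ n ih =>
    have hsw : Ac (cPos false ⟨n + 1, hn⟩) L ↔ Ac (ifP (D.dval (L (D.col true (n + 1))) = dg D.b (n + 1))
        (cPos false ⟨n, by omega⟩) (cPos true 0)) L := by
      refine ac_sw (f := fun v => ifP (D.dval v = dg D.b (n + 1)) (cPos false ⟨n, by omega⟩)
        (cPos true 0)) ?_ (fun _ => rfl)
      intro x
      show D.posK false ⟨n + 1, hn⟩ x.2.1 = _
      simp only [posK]
      rw [ifP_neg (by simp)]
      simp only [dg, ifP_f]
      rfl
    rw [hsw, Vr_succ, Tg_succ]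
    by_cases h0 : D.dval (L (D.col true (n + 1))) = dg D.b (n + 1)
    · rw [ifP_pos h0, ih (by omega), h0]
      constructor
      · rintro ⟨h1, h2⟩
        refine ⟨h1, fun h3 => h2 ?_⟩
        exact (digit_unique (dg_lt _ _) (dg_lt _ _) h3).2
      · rintro ⟨h1, h2⟩
        exact ⟨h1, fun h3 => h2 (by rw [h3])⟩
    · rw [ifP_neg h0]
      have hacc : Ac (cPos true (0 : D.Ix)) L ↔ ∑ j, L j = 0 ∧ D.Vr true L 0 = D.Tg 0 :=
        posEq_iff 0 (by omega) L
      rw [hacc]
      constructor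
      · intro h
        refine ⟨h.1, fun h3 => h0 ?_⟩
        exact (digit_unique (dval_lt _) (dg_lt _ _) h3).1
      · exact fun h => ⟨h.1, rfl⟩

theorem pt_iff (a : D.Cell) (L : Frame D.p D.b) :
    Ac (ifP (a = (D.blank, some D.q0)) (cPos true (Fin.last _))
        (ifP (a = (D.blank, none)) (cPos false (Fin.last _)) cDead)) L ↔
      (a = (D.blank, some D.q0) ∧ ∑ j, L j = 0 ∧ D.Vr true L D.m = D.Tg D.m) ∨
      (a = (D.blank, none) ∧ ∑ j, L j = 0 ∧ D.Vr true L D.m ≠ D.Tg D.m) := by
  by_cases h1 : a = (D.blank, some D.q0)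
  · rw [ifP_pos h1]
    have hf : Ac (cPos true (Fin.last _)) L ↔ ∑ j, L j = 0 ∧ D.Vr true L D.m = D.Tg D.m :=
      posEq_iff D.m (Nat.lt_succ_self _) L
    rw [hf]
    constructor
    · exact fun h => Or.inl ⟨h1, h⟩
    · rintro (h | ⟨h2, _⟩)
      · exact h.2
      · rw [h1] at h2
        simp at h2
  · rw [ifP_neg h1]
    by_cases h2 : a = (D.blank, none)
    · rw [ifP_pos h2]
      have hf : Ac (cPos false (Fin.last _)) L ↔ ∑ j, L j = 0 ∧ D.Vr true L D.m ≠ D.Tg D.m :=
        posNe_iff D.m (Nat.lt_succ_self _) L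
      rw [hf]
      constructor
      · exact fun h => Or.inr ⟨h2, h⟩
      · rintro (h | h)
        · exact absurd h.1 h1
        · exact h.2
    · rw [ifP_neg h2]
      constructor
      · intro h
        exact absurd h not_ac_dead
      · rintro (h | h)
        · exact absurd h.1 h1
        · exact absurd h.1 h2

/-! ### Claims -/

lemma claim_iff (a : D.Cell) (L : Frame D.p D.b) :
    Ac (cClaim a) L ↔ Ac (cInit a (Fin.last _)) L ∨
      ∃ t : D.Tri, D.rule t.1 t.2.1 t.2.2 = a ∧
        Ac (cDig none false false (Fin.last _) (Sum.inr t)) L := by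
  rw [ac_or (fun _ => rfl)]
  constructor
  · rintro ⟨x, h⟩
    have e : D.kidL (cClaim a) x = D.claimK a x.1 x.2.2 := rfl
    rw [e] at h
    simp only [claimK] at h
    by_cases hf : x.2.2 = true
    · rw [ifP_pos hf] at h
      exact Or.inl h
    · rw [ifP_neg hf] at h
      by_cases hr : D.rule x.1.1 x.1.2.1 x.1.2.2 = a
      · rw [ifP_pos hr] at h
        exact Or.inr ⟨x.1, hr, h⟩
      · rw [ifP_neg hr] at h
        exact absurd h not_ac_dead
  · rintro (h | ⟨t, hr, h⟩)
    · refine ⟨((a, a, a), 0, true), ?_⟩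
      have e : D.kidL (cClaim a) ((a, a, a), 0, true) = D.claimK a (a, a, a) true := rfl
      rw [e]
      simp only [claimK]
      rw [ifP_T]
      exact h
    · refine ⟨(t, 0, false), ?_⟩
      have e : D.kidL (cClaim a) (t, 0, false) = D.claimK a t false := rfl
      rw [e]
      simp only [claimK]
      rw [ifP_f, ifP_pos hr]
      exact h

lemma stp_iff (t : D.Tri) (L : Frame D.p D.b) :
    Ac (cStp t false) L ↔ Ac (cDig none false true (Fin.last _) (Sum.inl t.1)) L ∧
      Ac (cClaim t.2.1) L ∧ Ac (cDig none true true (Fin.last _) (Sum.inl t.2.2)) L := by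
  have hand : ∀ f : Bool, Ac (cStp t f) L ↔ A (D.stpL t f) L ∧ A (D.stpR t f) L := by
    intro f
    rw [acc_gate]
    constructor
    · rintro ⟨i, h1, h2⟩
      exact ⟨h1, h2⟩
    · rintro ⟨h1, h2⟩
      exact ⟨brOf 0, h1, h2⟩
  have e1 : D.stpL t false = nG (cDig none false true (Fin.last _) (Sum.inl t.1)) := by
    simp only [stpL, ifP_f]
  have e2 : D.stpR t false = nG (cStp t true) := by
    simp only [stpR, ifP_f]
  have e3 : D.stpL t true = nG (cClaim t.2.1) := by
    simp only [stpL, ifP_T]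
  have e4 : D.stpR t true = nG (cDig none true true (Fin.last _) (Sum.inl t.2.2)) := by
    simp only [stpR, ifP_T]
  rw [hand false, e1, e2]
  have h2 := hand true
  rw [e3, e4] at h2
  show Ac _ L ∧ Ac (cStp t true) L ↔ _
  rw [h2]

/-- Soundness of a claim. -/
theorem claim_sound (τ : ℕ) : ∀ (a : D.Cell) (L : Frame D.p D.b), D.Vr false L D.m = τ →
    Ac (cClaim a) L → D.cell τ ((D.Vr true L D.m : ℤ) - (D.Tg D.m : ℤ)) = a := by
  induction τ with
  | zero =>
    intro a L hτ hA
    rcases (claim_iff a L).1 hA with h | ⟨tr, hr, h⟩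
    · have h2 := (initT_iff a D.m (Nat.lt_succ_self _) L).1 h
      rcases (pt_iff a L).1 h2.2 with ⟨e, _, hv⟩ | ⟨e, _, hv⟩
      · rw [cell_zero, e]
        simp [hv]
      · rw [cell_zero, e]
        have hne : ¬ ((D.Vr true L D.m : ℤ) - D.Tg D.m = 0) := by omega
        simp [hne]
    · obtain ⟨L1, _, hV, _⟩ := dec_sound false (Sum.inr tr) D.m (Nat.lt_succ_self _) L h
      omega
  | succ τ ih =>
    intro a L hτ hA
    rcases (claim_iff a L).1 hA with h | ⟨tr, hr, h⟩
    · have h2 := (initT_iff a D.m (Nat.lt_succ_self _) L).1 h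
      omega
    · obtain ⟨L1, hS1, hV1, hK1⟩ := dec_sound false (Sum.inr tr) D.m (Nat.lt_succ_self _) L h
      obtain ⟨hk1, hk2, hk3⟩ := (stp_iff tr L1).1 hK1
      have hτ1 : D.Vr false L1 D.m = τ := by omega
      have hp1 : D.Vr true L1 D.m = D.Vr true L D.m :=
        Vr_congr true D.m (fun n' h1 h2 => hS1.2.1 n' h1 h2)
      obtain ⟨L2, hS2, hV2, hK2⟩ :=
        dec_sound true (Sum.inl tr.1) D.m (Nat.lt_succ_self _) L1 hk1
      obtain ⟨L3, hS3, hV3, hK3⟩ :=
        inc_sound true (Sum.inl tr.2.2) D.m (Nat.lt_succ_self _) L1 hk3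
      have hτ2 : D.Vr false L2 D.m = τ := by
        rw [← hτ1]
        exact Vr_congr false D.m (fun n' h1 h2 => hS2.2.1 n' h1 h2)
      have hτ3 : D.Vr false L3 D.m = τ := by
        rw [← hτ1]
        exact Vr_congr false D.m (fun n' h1 h2 => hS3.2.1 n' h1 h2)
      have c1 := ih _ L2 hτ2 hK2
      have c2 := ih _ L1 hτ1 hk2
      have c3 := ih _ L3 hτ3 hK3
      have e1 : (D.Vr true L2 D.m : ℤ) - D.Tg D.m = (D.Vr true L D.m : ℤ) - D.Tg D.m - 1 := by omega
      have e2 : (D.Vr true L1 D.m : ℤ) - D.Tg D.m = (D.Vr true L D.m : ℤ) - D.Tg D.m := by omega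
      have e3 : (D.Vr true L3 D.m : ℤ) - D.Tg D.m = (D.Vr true L D.m : ℤ) - D.Tg D.m + 1 := by omega
      rw [e1] at c1
      rw [e2] at c2
      rw [e3] at c3
      rw [cell_succ, ← hr, ← c1, ← c2, ← c3]

/-- Completeness of a claim. -/
theorem claim_complete (τ : ℕ) : ∀ (a : D.Cell) (L : Frame D.p D.b), ∑ j, L j = 0 →
    D.Vr false L D.m = τ → D.cell τ ((D.Vr true L D.m : ℤ) - (D.Tg D.m : ℤ)) = a →
    τ ≤ D.Vr true L D.m → D.Vr true L D.m + τ < (2 ^ D.b) ^ D.m → Ac (cClaim a) L := by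
  induction τ with
  | zero =>
    intro a L hs hτ ha _ _
    refine (claim_iff a L).2 (Or.inl ?_)
    refine (initT_iff a D.m (Nat.lt_succ_self _) L).2 ⟨hτ, (pt_iff a L).2 ?_⟩
    rw [cell_zero] at ha
    by_cases hv : D.Vr true L D.m = D.Tg D.m
    · left
      refine ⟨?_, hs, hv⟩
      rw [← ha]
      simp [hv]
    · right
      refine ⟨?_, hs, hv⟩
      rw [← ha]
      have hne : ¬ ((D.Vr true L D.m : ℤ) - D.Tg D.m = 0) := by omega
      simp [hne]
  | succ τ ih =>
    intro a L hs hτ ha h1 h2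
    set x : ℤ := (D.Vr true L D.m : ℤ) - (D.Tg D.m : ℤ) with hx
    let tr : D.Tri := (D.cell τ (x - 1), D.cell τ x, D.cell τ (x + 1))
    have hr : D.rule tr.1 tr.2.1 tr.2.2 = a := by
      rw [← ha, cell_succ]
    refine (claim_iff a L).2 (Or.inr ⟨tr, hr, ?_⟩)
    refine dec_complete false (Sum.inr tr) D.m (Nat.lt_succ_self _) L (by omega) fun L1 hS1 hV1 => ?_
    have hτ1 : D.Vr false L1 D.m = τ := by omega
    have hp1 : D.Vr true L1 D.m = D.Vr true L D.m :=
      Vr_congr true D.m (fun n' h1 h2 => hS1.2.1 n' h1 h2)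
    have hs1 : ∑ j, L1 j = 0 := by rw [hS1.2.2, hs]
    refine (stp_iff tr L1).2 ⟨?_, ?_, ?_⟩
    · refine dec_complete true (Sum.inl tr.1) D.m (Nat.lt_succ_self _) L1 (by omega)
        fun L2 hS2 hV2 => ?_
      have hτ2 : D.Vr false L2 D.m = τ := by
        rw [← hτ1]
        exact Vr_congr false D.m (fun n' h1 h2 => hS2.2.1 n' h1 h2)
      refine ih _ L2 (by rw [hS2.2.2, hs1]) hτ2 ?_ (by omega) (by omega)
      have e1 : (D.Vr true L2 D.m : ℤ) - D.Tg D.m = x - 1 := by omega
      rw [e1]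
    · refine ih _ L1 hs1 hτ1 ?_ (by omega) (by omega)
      have e2 : (D.Vr true L1 D.m : ℤ) - D.Tg D.m = x := by omega
      rw [e2]
    · refine inc_complete true (Sum.inl tr.2.2) D.m (Nat.lt_succ_self _) L1 (by omega)
        fun L3 hS3 hV3 => ?_
      have hτ3 : D.Vr false L3 D.m = τ := by
        rw [← hτ1]
        exact Vr_congr false D.m (fun n' h1 h2 => hS3.2.1 n' h1 h2)
      refine ih _ L3 (by rw [hS3.2.2, hs1]) hτ3 ?_ (by omega) (by omega)
      have e3 : (D.Vr true L3 D.m : ℤ) - D.Tg D.m = x + 1 := by omega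
      rw [e3]

/-! ### The start -/

lemma start_iff (L : Frame D.p D.b) :
    Ac (cStart : D.Ctl) L ↔ ∃ a : D.Cell, a.2 = some D.qa ∧ L (D.col false 1) = D.ds 0 ∧
      Ac (cClaim a) L := by
  rw [ac_or (fun _ => rfl)]
  constructor
  · rintro ⟨x, h⟩
    have e : D.kidL cStart x = D.startK x.1.1 := rfl
    rw [e] at h
    simp only [startK] at h
    by_cases hq : x.1.1.2 = some D.qa
    · rw [ifP_pos hq, acc_read] at h
      exact ⟨x.1.1, hq, h.1, h.2⟩
    · rw [ifP_neg hq] at h
      exact absurd h not_ac_dead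
  · rintro ⟨a, ha, h0, h⟩
    refine ⟨((a, a, a), 0, false), ?_⟩
    have e : D.kidL cStart ((a, a, a), 0, false) = D.startK a := rfl
    rw [e]
    simp only [startK]
    rw [ifP_pos ha, acc_read]
    exact ⟨h0, h⟩

/-- A zero top digit of the time. -/
lemma Vr_top {L : Frame D.p D.b} (h : L (D.col false 1) = D.ds 0) (n : ℕ) :
    D.Vr false L (n + 1) < (2 ^ D.b) ^ n := by
  have hQ : 0 < 2 ^ D.b := by positivity
  induction n with
  | zero =>
    rw [Vr_succ, h, dval_ds hQ]
    simp [Vr]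
  | succ n ih =>
    rw [Vr_succ]
    have h1 := dval_lt (L (D.col false (n + 1 + 1)))
    calc D.dval (L (D.col false (n + 1 + 1))) + 2 ^ D.b * D.Vr false L (n + 1)
        < 2 ^ D.b + 2 ^ D.b * D.Vr false L (n + 1) := by omega
      _ = 2 ^ D.b * (D.Vr false L (n + 1) + 1) := by ring
      _ ≤ 2 ^ D.b * (2 ^ D.b) ^ n := Nat.mul_le_mul_left _ ih
      _ = (2 ^ D.b) ^ (n + 1) := by ring

/-- Soundness of the start. -/
theorem start_sound (hm : 1 ≤ D.m) (L : Frame D.p D.b) (h : Ac (cStart : D.Ctl) L) :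
    D.AcceptsWithin ((2 ^ D.b) ^ (D.m - 1) - 1) := by
  obtain ⟨a, ha, h0, hc⟩ := (start_iff L).1 h
  have hc2 := claim_sound _ a L rfl hc
  obtain ⟨n, hn⟩ : ∃ n, D.m = n + 1 := ⟨D.m - 1, by omega⟩
  have hlt := Vr_top h0 n
  rw [← hn] at hlt
  refine ⟨D.Vr false L D.m, ?_, ?_⟩
  · have : D.m - 1 = n := by omega
    rw [this]
    omega
  · rw [← hc2] at ha
    simp only [cell] at ha
    split_ifs at ha
    simpa using ha

/-- Completeness of the start: any frame with the right time and position. -/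
theorem start_complete (hm : 1 ≤ D.m) (hb : 2 ≤ D.b) (L : Frame D.p D.b) (hs : ∑ j, L j = 0)
    (h0 : L (D.col false 1) = D.ds 0) {t : ℕ} (ht : t < (2 ^ D.b) ^ (D.m - 1))
    (hq : (D.run t).q = D.qa) (hL : D.Vr false L D.m = t)
    (hP : (D.Vr true L D.m : ℤ) = (D.run t).h + D.Tg D.m) : Ac (cStart : D.Ctl) L := by
  have hTg := Tg_val (D := D) (by omega) D.m hm
  have hh := head_bound (D := D) t
  rw [abs_le] at hh
  obtain ⟨hh1, hh2⟩ := hh
  obtain ⟨n, hn⟩ : ∃ n, D.m = n + 1 := ⟨D.m - 1, by omega⟩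
  have hpw : (2 ^ D.b) ^ D.m = 2 ^ D.b * (2 ^ D.b) ^ (D.m - 1) := by
    rw [hn]
    simp only [Nat.add_sub_cancel]
    ring
  have h4 : 4 ≤ 2 ^ D.b := by
    calc 4 = 2 ^ 2 := by norm_num
      _ ≤ 2 ^ D.b := Nat.pow_le_pow_right (by omega) hb
  have hbig : 4 * (2 ^ D.b) ^ (D.m - 1) ≤ (2 ^ D.b) ^ D.m := by
    rw [hpw]
    exact Nat.mul_le_mul_right _ h4
  refine (start_iff L).2 ⟨D.cell t (D.run t).h, ?_, h0, ?_⟩
  · simp [cell, hq]
  · refine claim_complete t _ L hs hL ?_ ?_ ?_
    · have e : (D.Vr true L D.m : ℤ) - D.Tg D.m = (D.run t).h := by omega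
      rw [e]
    · omega
    · omega

end Par

end

end Vale.Agent.Lib.P310.TMC
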